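import Mathlib

/-!
# Labelled actions of a free group and their holonomy

Let the free group `F` on `n` generators act on a set `X` (generator `j` acting by the permutation
`σ j`) and let `lam : Fin n → X → T` be a labelling of the edges `x → σ j x` of the Schreier graph
by elements of a group `T`.  The labelled action is the action of `F` on `X × T` in which the
generator `j` sends `(x, t)` to `(σ j x, lam j x * t)`.  The holonomy `Hol σ lam g x` is the
product of the labels along the path `g` starting at `x`.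
-/

namespace Vale.Agent.H52.LG

variable {n : ℕ} {X : Type} {T : Type} [Group T]

/-- The permutation of `X × T` attached to the generator `j`. -/
def labPerm (σ : Fin n → Equiv.Perm X) (lam : Fin n → X → T) (j : Fin n) :
    Equiv.Perm (X × T) where
  toFun xt := (σ j xt.1, lam j xt.1 * xt.2)
  invFun xt := ((σ j).symm xt.1, (lam j ((σ j).symm xt.1))⁻¹ * xt.2)
  left_inv := by
    rintro ⟨x, t⟩
    simp
  right_inv := by
    rintro ⟨x, t⟩
    simp

/-- The action of the free group on `X`. -/
def act (σ : Fin n → Equiv.Perm X) : FreeGroup (Fin n) →* Equiv.Perm X := FreeGroup.lift σ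

/-- The labelled action of the free group on `X × T`. -/
def Lam (σ : Fin n → Equiv.Perm X) (lam : Fin n → X → T) :
    FreeGroup (Fin n) →* Equiv.Perm (X × T) := FreeGroup.lift (labPerm σ lam)

/-- The holonomy of the path `g` starting at `x`. -/
def Hol (σ : Fin n → Equiv.Perm X) (lam : Fin n → X → T) (g : FreeGroup (Fin n)) (x : X) : T :=
  (Lam σ lam g (x, 1)).2

variable (σ : Fin n → Equiv.Perm X) (lam : Fin n → X → T)

@[simp] theorem act_of (j : Fin n) : act σ (FreeGroup.of j) = σ j := by
  simp [act]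

@[simp] theorem Lam_of (j : Fin n) : Lam σ lam (FreeGroup.of j) = labPerm σ lam j := by
  simp [Lam]

theorem Lam_apply (g : FreeGroup (Fin n)) (x : X) (t : T) :
    Lam σ lam g (x, t) = (act σ g x, Hol σ lam g x * t) := by
  induction g using FreeGroup.induction_on generalizing x t with
  | C1 => simp [Hol]
  | of j =>
    show Lam σ lam (FreeGroup.of j) (x, t) =
      (act σ (FreeGroup.of j) x, (Lam σ lam (FreeGroup.of j) (x, 1)).2 * t)
    rw [Lam_of, act_of]
    simp [labPerm]
  | inv_of j _ =>
    show (Lam σ lam (FreeGroup.of j)⁻¹) (x, t) =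
      (act σ (FreeGroup.of j)⁻¹ x, (Lam σ lam (FreeGroup.of j)⁻¹ (x, 1)).2 * t)
    rw [map_inv, map_inv, Lam_of, act_of]
    simp [labPerm, Equiv.Perm.inv_def]
  | mul g h ihg ihh =>
    have h1 : Hol σ lam (g * h) x = Hol σ lam g (act σ h x) * Hol σ lam h x := by
      show (Lam σ lam (g * h) (x, 1)).2 = _
      rw [map_mul, Equiv.Perm.mul_apply, ihh x 1, ihg]
      simp
    rw [h1, map_mul, Equiv.Perm.mul_apply, ihh x t, ihg, map_mul, Equiv.Perm.mul_apply, mul_assoc]

theorem Hol_mul (g h : FreeGroup (Fin n)) (x : X) :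
    Hol σ lam (g * h) x = Hol σ lam g (act σ h x) * Hol σ lam h x := by
  show (Lam σ lam (g * h) (x, 1)).2 = _
  rw [map_mul, Equiv.Perm.mul_apply, Lam_apply σ lam h x 1, Lam_apply]
  simp

@[simp] theorem Hol_one (x : X) : Hol σ lam 1 x = 1 := by
  simp [Hol]

@[simp] theorem Hol_of (j : Fin n) (x : X) : Hol σ lam (FreeGroup.of j) x = lam j x := by
  simp [Hol, labPerm]

theorem Hol_inv (g : FreeGroup (Fin n)) (x : X) :
    Hol σ lam g⁻¹ x = (Hol σ lam g (act σ g⁻¹ x))⁻¹ := by
  have h := Hol_mul σ lam g g⁻¹ x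
  rw [mul_inv_cancel, Hol_one] at h
  exact eq_inv_of_mul_eq_one_right h.symm

/-- A cocycle that agrees with the labels on the generators is the holonomy. -/
theorem Hol_unique (c : FreeGroup (Fin n) → X → T)
    (hmul : ∀ g h x, c (g * h) x = c g (act σ h x) * c h x)
    (hof : ∀ j x, c (FreeGroup.of j) x = lam j x) (g : FreeGroup (Fin n)) (x : X) :
    c g x = Hol σ lam g x := by
  have hone : ∀ x, c 1 x = 1 := by
    intro x
    have h := hmul 1 1 x
    rw [mul_one, map_one, Equiv.Perm.one_apply] at h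
    exact (mul_eq_left.mp h.symm)
  have hinv : ∀ g x, c g⁻¹ x = (c g (act σ g⁻¹ x))⁻¹ := by
    intro g x
    have h := hmul g g⁻¹ x
    rw [mul_inv_cancel, hone] at h
    exact eq_inv_of_mul_eq_one_right h.symm
  induction g using FreeGroup.induction_on generalizing x with
  | C1 => rw [hone, Hol_one]
  | of j => rw [hof, Hol_of]
  | inv_of j _ => rw [hinv, Hol_inv, hof, Hol_of]
  | mul g h ihg ihh => rw [hmul, Hol_mul, ihg, ihh]

/-- Functoriality in the group of labels. -/
theorem Hol_map {T' : Type} [Group T'] (f : T →* T') (g : FreeGroup (Fin n)) (x : X) :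
    Hol σ (fun j x => f (lam j x)) g x = f (Hol σ lam g x) := by
  refine (Hol_unique σ (fun j x => f (lam j x)) (fun g x => f (Hol σ lam g x)) ?_ ?_ g x).symm
  · intro g h x
    rw [Hol_mul, map_mul]
  · intro j x
    rw [Hol_of]

theorem Hol_triv (g : FreeGroup (Fin n)) (x : X) :
    Hol σ (fun _ _ => (1 : T)) g x = 1 := by
  refine (Hol_unique σ (fun _ _ => (1 : T)) (fun _ _ => (1 : T)) ?_ ?_ g x).symm
  · intro g h x
    rw [mul_one]
  · intro j x
    rfl

/-- For commutative labels the holonomy is multiplicative in the labelling. -/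
theorem Hol_mul_labels {A : Type} [CommGroup A] (c c' : Fin n → X → A) (g : FreeGroup (Fin n))
    (x : X) : Hol σ (fun j x => c j x * c' j x) g x = Hol σ c g x * Hol σ c' g x := by
  refine (Hol_unique σ (fun j x => c j x * c' j x)
    (fun g x => Hol σ c g x * Hol σ c' g x) ?_ ?_ g x).symm
  · intro g h x
    rw [Hol_mul, Hol_mul, mul_mul_mul_comm]
  · intro j x
    rw [Hol_of, Hol_of]

theorem Hol_pow_fix (g : FreeGroup (Fin n)) (x : X) (hx : act σ g x = x) (k : ℕ) :
    Hol σ lam (g ^ k) x = Hol σ lam g x ^ k := by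
  induction k with
  | zero => simp
  | succ k ih => rw [pow_succ, Hol_mul, hx, ih, pow_succ]

/-- Invariance of the holonomy of a loop along the orbit of a commuting element. -/
theorem Hol_comm_inv {A : Type} [CommGroup A] (c : Fin n → X → A) (g h : FreeGroup (Fin n))
    (hgh : g * h = h * g) (x : X) (hx : act σ g x = x) :
    Hol σ c g (act σ h x) = Hol σ c g x := by
  have h1 := Hol_mul σ c g h x
  rw [hgh, Hol_mul, hx] at h1
  rw [mul_comm] at h1
  exact (mul_right_cancel h1).symm

theorem Lam_eq_one_iff (g : FreeGroup (Fin n)) :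
    Lam σ lam g = 1 ↔ act σ g = 1 ∧ ∀ x, Hol σ lam g x = 1 := by
  constructor
  · intro h
    have h1 : ∀ x, (act σ g x, Hol σ lam g x * 1) = (x, (1 : T)) := by
      intro x
      rw [← Lam_apply, h]
      rfl
    refine ⟨?_, fun x => ?_⟩
    · ext x
      exact (Prod.mk.inj (h1 x)).1
    · have := (Prod.mk.inj (h1 x)).2
      rwa [mul_one] at this
  · rintro ⟨h1, h2⟩
    ext ⟨x, t⟩
    · rw [Lam_apply, h1]
      rfl
    · rw [Lam_apply, h2, one_mul]
      rfl

/-- If the action on `X` has `p`-power order elements and `T` has `p`-power exponent, the labelled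
action has `p`-power order elements. -/
theorem Lam_pgroup (p : ℕ) (hσp : ∀ g, ∃ k, act σ (g ^ p ^ k) = 1) (e : ℕ)
    (hT : ∀ u : T, u ^ p ^ e = 1) (g : FreeGroup (Fin n)) :
    ∃ k, Lam σ lam (g ^ p ^ k) = 1 := by
  obtain ⟨k, hk⟩ := hσp g
  refine ⟨k + e, ?_⟩
  rw [pow_add, pow_mul, Lam_eq_one_iff]
  refine ⟨?_, fun x => ?_⟩
  · rw [map_pow, hk, one_pow]
  · rw [Hol_pow_fix σ lam (g ^ p ^ k) x (by rw [hk]; rfl), hT]

/-- If all loops at `x₀` and all paths of a section have trivial holonomy, the labels are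
trivial. -/
theorem labels_trivial (x₀ : X) (gs : X → FreeGroup (Fin n)) (hgs : ∀ x, act σ (gs x) x₀ = x)
    (hloop : ∀ h, act σ h x₀ = x₀ → Hol σ lam h x₀ = 1)
    (hsec : ∀ x, Hol σ lam (gs x) x₀ = 1) (j : Fin n) (x : X) : lam j x = 1 := by
  have h1 : Hol σ lam (FreeGroup.of j * gs x) x₀ = lam j x := by
    rw [Hol_mul, hgs, Hol_of, hsec, mul_one]
  set u : FreeGroup (Fin n) := (gs (σ j x))⁻¹ * (FreeGroup.of j * gs x) with hu
  have hu1 : act σ u x₀ = x₀ := by
    rw [hu, map_mul, map_mul, Equiv.Perm.mul_apply, Equiv.Perm.mul_apply, hgs, act_of, map_inv,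
      Equiv.Perm.inv_def, Equiv.symm_apply_eq, hgs]
  have h2 : FreeGroup.of j * gs x = gs (σ j x) * u := by
    rw [hu, mul_inv_cancel_left]
  rw [← h1, h2, Hol_mul, hu1, hsec, hloop u hu1, mul_one]

/-- Equivariant maps intertwine the actions. -/
theorem act_equivariant {X' : Type} (σ' : Fin n → Equiv.Perm X') (π : X → X')
    (hπ : ∀ j x, π (σ j x) = σ' j (π x)) (g : FreeGroup (Fin n)) (x : X) :
    π (act σ g x) = act σ' g (π x) := by
  induction g using FreeGroup.induction_on generalizing x with
  | C1 => simp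
  | of j => rw [act_of, act_of, hπ]
  | inv_of j _ =>
    rw [map_inv, map_inv, act_of, act_of, Equiv.Perm.inv_def, Equiv.Perm.inv_def,
      Equiv.eq_symm_apply, ← hπ, Equiv.apply_symm_apply]
  | mul g h ihg ihh =>
    rw [map_mul, map_mul, Equiv.Perm.mul_apply, Equiv.Perm.mul_apply, ihg, ihh]

/-- Locality of the holonomy with respect to a level function of bounded displacement, across an
equivariant map. -/
theorem Hol_cover {X' : Type} (σ' : Fin n → Equiv.Perm X') (π : X → X')
    (hπ : ∀ j x, π (σ j x) = σ' j (π x)) (lev : X → ℤ) (D : ℕ)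
    (hD : ∀ j x, |lev (σ j x) - lev x| ≤ D) (g : FreeGroup (Fin n)) :
    ∃ L : ℕ, (∀ x, |lev (act σ g x) - lev x| ≤ L) ∧
      ∀ (T : Type) [Group T] (lam : Fin n → X → T) (lam' : Fin n → X' → T) (x : X),
        (∀ j y, |lev y - lev x| ≤ L → lam' j (π y) = lam j y) →
        Hol σ' lam' g (π x) = Hol σ lam g x := by
  induction g using FreeGroup.induction_on with
  | C1 =>
    refine ⟨0, fun x => by simp, ?_⟩
    intro T _ lam lam' x _
    rw [Hol_one, Hol_one]
  | of j =>
    refine ⟨D, fun x => by rw [act_of]; exact hD j x, ?_⟩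
    intro T _ lam lam' x h
    rw [Hol_of, Hol_of]
    apply h
    simp
  | inv_of j _ =>
    have hd : ∀ x, |lev ((σ j).symm x) - lev x| ≤ D := by
      intro x
      have := hD j ((σ j).symm x)
      rw [Equiv.apply_symm_apply] at this
      rwa [abs_sub_comm]
    refine ⟨D, fun x => by rw [map_inv, act_of, Equiv.Perm.inv_def]; exact hd x, ?_⟩
    intro T _ lam lam' x h
    rw [Hol_inv, Hol_inv, Hol_of, Hol_of, map_inv, map_inv, act_of, act_of, Equiv.Perm.inv_def,
      Equiv.Perm.inv_def]
    have h1 : (σ' j).symm (π x) = π ((σ j).symm x) := by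
      rw [Equiv.symm_apply_eq, ← hπ, Equiv.apply_symm_apply]
    rw [h1, h _ _ (hd x)]
  | mul g h ihg ihh =>
    obtain ⟨Lg, hg1, hg2⟩ := ihg
    obtain ⟨Lh, hh1, hh2⟩ := ihh
    refine ⟨Lg + Lh, ?_, ?_⟩
    · intro x
      rw [map_mul, Equiv.Perm.mul_apply]
      have h1 := hg1 (act σ h x)
      have h2 := hh1 x
      have h3 := abs_sub_le (lev (act σ g (act σ h x))) (lev (act σ h x)) (lev x)
      push_cast
      linarith
    · intro T _ lam lam' x hyp
      rw [Hol_mul, Hol_mul, ← act_equivariant σ σ' π hπ]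
      rw [hg2 T lam lam' (act σ h x), hh2 T lam lam' x]
      · intro j y hy
        apply hyp
        push_cast
        linarith [Nat.cast_nonneg (α := ℤ) Lg]
      · intro j y hy
        apply hyp
        have h2 := hh1 x
        have h3 := abs_sub_le (lev y) (lev (act σ h x)) (lev x)
        push_cast
        linarith

end Vale.Agent.H52.LG
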