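import Mathlib
import Vale.Agent.H52.LG.Hol

/-!
# Integer labellings with prescribed trivial holonomies

If there are more admissible edges than prescribed paths, there is a non-trivial integer labelling
supported on the admissible edges whose holonomy along every prescribed path is trivial.
-/

namespace Vale.Agent.H52.LG

variable {n : ℕ} {X : Type}

/-- Integer labels supported on a finite set of edges. -/
noncomputable def zlab (E : Finset (Fin n × X)) (z : E → ℤ) : Fin n → X → Multiplicative ℤ :=
  fun j x => by
    classical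
    exact if h : (j, x) ∈ E then Multiplicative.ofAdd (z ⟨(j, x), h⟩) else 1

theorem zlab_add (E : Finset (Fin n × X)) (z z' : E → ℤ) :
    zlab E (z + z') = fun j x => zlab E z j x * zlab E z' j x := by
  funext j x
  unfold zlab
  by_cases h : (j, x) ∈ E
  · simp only [dif_pos h]
    rfl
  · simp only [dif_neg h, mul_one]

theorem zlab_zero (E : Finset (Fin n × X)) :
    zlab E (0 : E → ℤ) = fun _ _ => (1 : Multiplicative ℤ) := by
  funext j x
  unfold zlab
  by_cases h : (j, x) ∈ E
  · simp only [dif_pos h]
    rfl
  · simp only [dif_neg h]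

theorem exists_labels (σ : Fin n → Equiv.Perm X) (E : Finset (Fin n × X))
    (K : Finset (FreeGroup (Fin n) × X)) (hK : K.card < E.card) :
    ∃ c : Fin n → X → Multiplicative ℤ, (∀ j x, (j, x) ∉ E → c j x = 1) ∧
      (∃ j x, c j x ≠ 1) ∧ ∀ e ∈ K, Hol σ c e.1 e.2 = 1 := by
  classical
  let Φ : (E → ℤ) →+ (K → ℤ) :=
    { toFun := fun z e => Multiplicative.toAdd (Hol σ (zlab E z) e.1.1 e.1.2)
      map_zero' := by
        funext e
        show Multiplicative.toAdd (Hol σ (zlab E 0) e.1.1 e.1.2) = 0
        rw [zlab_zero, Hol_triv]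
        rfl
      map_add' := by
        intro z z'
        funext e
        show Multiplicative.toAdd (Hol σ (zlab E (z + z')) e.1.1 e.1.2) =
          Multiplicative.toAdd (Hol σ (zlab E z) e.1.1 e.1.2) +
            Multiplicative.toAdd (Hol σ (zlab E z') e.1.1 e.1.2)
        rw [zlab_add, Hol_mul_labels]
        rfl }
  have hninj : ¬ Function.Injective Φ.toIntLinearMap := by
    intro hinj
    have h := card_le_of_injective ℤ Φ.toIntLinearMap hinj
    rw [Fintype.card_coe, Fintype.card_coe] at h
    omega
  have hninj' : ¬ Function.Injective Φ := hninj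
  rw [injective_iff_map_eq_zero] at hninj'
  push Not at hninj'
  obtain ⟨z, hz, hz0⟩ := hninj'
  refine ⟨zlab E z, ?_, ?_, ?_⟩
  · intro j x h
    unfold zlab
    simp only [dif_neg h]
  · obtain ⟨e, he⟩ := Function.ne_iff.mp hz0
    refine ⟨e.1.1, e.1.2, ?_⟩
    unfold zlab
    have hmem : (e.1.1, e.1.2) ∈ E := e.2
    simp only [dif_pos hmem]
    intro h1
    apply he
    have : z e = 0 := h1
    exact this
  · intro e he
    have h1 := congrFun hz ⟨e, he⟩
    have h2 : Multiplicative.toAdd (Hol σ (zlab E z) e.1 e.2) = 0 := h1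
    exact h2

end Vale.Agent.H52.LG
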