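import Mathlib
import Vale.Agent.H52.LG.Hol

/-!
# The maximality principle

Fix a prime `p`, words `w i` and exponents `a i`.  Among the homomorphisms `θ` from the free
group to finite groups, with image a `p`-group and with `θ (w i) ^ p ^ a i = 1` for all `i`,
choose one that maximises `∑ i, ord (θ (w i))`.  Call `i` active if `ord (θ (w i)) = p ^ a i`.

The principle: let `X` be a finite set on which the free group acts through a `p`-group, the
relators `w i ^ p ^ a i` acting trivially, and label the Schreier graph of `X` by elements of a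
group `T` that carries a separating tower of homomorphisms to finite `p`-groups along which
`p`-th powers sink.  If the holonomy of every active relator is trivial, the holonomy of every
relator is trivial.
-/

namespace Vale.Agent.H52.LG

variable {n m : ℕ}

/-- A homomorphism to a finite `p`-group killing the relators with maximal order profile. -/
structure MaxProfile (p : ℕ) (w : Fin m → FreeGroup (Fin n)) (a : Fin m → ℕ) {Q : Type} [Group Q]
    (θ : FreeGroup (Fin n) →* Q) : Prop where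
  pgroup : ∀ q : Q, ∃ k, q ^ p ^ k = 1
  surj : Function.Surjective θ
  rel : ∀ i, θ (w i) ^ p ^ a i = 1
  max : ∀ (Q' : Type) (_ : Group Q') (_ : Finite Q') (θ' : FreeGroup (Fin n) →* Q'),
    (∀ g, ∃ k, θ' g ^ p ^ k = 1) → (∀ i, θ' (w i) ^ p ^ a i = 1) →
    ∑ i, orderOf (θ' (w i)) ≤ ∑ i, orderOf (θ (w i))

theorem exists_max_profile_p (p : ℕ) (hp : 0 < p) (w : Fin m → FreeGroup (Fin n))
    (a : Fin m → ℕ) :
    ∃ (Q : Type) (_ : Group Q) (_ : Finite Q) (θ : FreeGroup (Fin n) →* Q),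
      MaxProfile p w a θ := by
  classical
  let P : ℕ → Prop := fun t =>
    ∃ (Q : Type) (_ : Group Q) (_ : Finite Q) (θ : FreeGroup (Fin n) →* Q),
      (∀ g, ∃ k, θ g ^ p ^ k = 1) ∧ (∀ i, θ (w i) ^ p ^ a i = 1) ∧ ∑ i, orderOf (θ (w i)) = t
  let B : ℕ := ∑ i, p ^ a i
  have hB : ∀ t, P t → t ≤ B := by
    rintro t ⟨Q, _, _, θ, -, hrel, rfl⟩
    apply Finset.sum_le_sum
    intro i _
    exact Nat.le_of_dvd (pow_pos hp _) (orderOf_dvd_of_pow_eq_one (hrel i))
  have h0 : ∃ t, P t := by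
    refine ⟨_, Unit, inferInstance, inferInstance, 1, ?_, ?_, rfl⟩
    · intro g
      exact ⟨0, rfl⟩
    · intro i
      rfl
  obtain ⟨t0, ht0⟩ := h0
  have hspec : P (Nat.findGreatest P B) := Nat.findGreatest_spec (hB t0 ht0) ht0
  obtain ⟨Q, hG, hF, θ, hpg, hrel, hsum⟩ := hspec
  have hord : ∀ g, orderOf (θ.rangeRestrict g) = orderOf (θ g) := by
    intro g
    rw [← Subgroup.orderOf_coe]
    rfl
  refine ⟨θ.range, inferInstance, inferInstance, θ.rangeRestrict, ?_, ?_, ?_, ?_⟩
  · rintro ⟨q, g, rfl⟩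
    obtain ⟨k, hk⟩ := hpg g
    refine ⟨k, ?_⟩
    apply Subtype.ext
    exact hk
  · exact θ.rangeRestrict_surjective
  · intro i
    apply Subtype.ext
    exact hrel i
  · intro Q' hG' hF' θ' hpg' hrel'
    have hP : P (∑ i, orderOf (θ' (w i))) := ⟨Q', hG', hF', θ', hpg', hrel', rfl⟩
    have h1 : ∑ i, orderOf (θ.rangeRestrict (w i)) = ∑ i, orderOf (θ (w i)) :=
      Finset.sum_congr rfl fun i _ => hord (w i)
    rw [h1, hsum]
    exact Nat.le_findGreatest (hB _ hP) hP

/-- Any other admissible homomorphism kills the roots `w i ^ ord (θ (w i))`. -/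
theorem MaxProfile.refine {p : ℕ} {w : Fin m → FreeGroup (Fin n)} {a : Fin m → ℕ} {Q : Type}
    [Group Q] [Finite Q] {θ : FreeGroup (Fin n) →* Q} (hm : MaxProfile p w a θ)
    {Q' : Type} [Group Q'] [Finite Q'] (θ' : FreeGroup (Fin n) →* Q')
    (hpg' : ∀ g, ∃ k, θ' g ^ p ^ k = 1) (hrel' : ∀ i, θ' (w i) ^ p ^ a i = 1) (i : Fin m) :
    θ' (w i ^ orderOf (θ (w i))) = 1 := by
  classical
  set θ2 : FreeGroup (Fin n) →* Q' × Q := θ'.prod θ with hθ2
  have hpg2 : ∀ g, ∃ k, θ2 g ^ p ^ k = 1 := by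
    intro g
    obtain ⟨k1, hk1⟩ := hpg' g
    obtain ⟨k2, hk2⟩ := hm.pgroup (θ g)
    refine ⟨k1 + k2, ?_⟩
    rw [hθ2, MonoidHom.prod_apply, Prod.pow_mk, Prod.mk_eq_one]
    constructor
    · rw [pow_add, pow_mul, hk1, one_pow]
    · rw [pow_add, mul_comm, pow_mul, hk2, one_pow]
  have hrel2 : ∀ i, θ2 (w i) ^ p ^ a i = 1 := by
    intro i
    rw [hθ2, MonoidHom.prod_apply, Prod.pow_mk, Prod.mk_eq_one]
    exact ⟨hrel' i, hm.rel i⟩
  have hle : ∀ i, orderOf (θ (w i)) ≤ orderOf (θ2 (w i)) := by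
    intro i
    apply Nat.le_of_dvd (orderOf_pos _)
    exact orderOf_map_dvd (MonoidHom.snd Q' Q) (θ2 (w i))
  have hmax := hm.max (Q' × Q) inferInstance inferInstance θ2 hpg2 hrel2
  have heq : orderOf (θ2 (w i)) = orderOf (θ (w i)) := by
    by_contra hne
    have hlt : orderOf (θ (w i)) < orderOf (θ2 (w i)) := lt_of_le_of_ne (hle i) (Ne.symm hne)
    have hgt : ∑ i, orderOf (θ (w i)) < ∑ i, orderOf (θ2 (w i)) :=
      Finset.sum_lt_sum (fun i _ => hle i) ⟨i, Finset.mem_univ i, hlt⟩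
    omega
  have h1 : θ2 (w i) ^ orderOf (θ (w i)) = 1 := by
    rw [← heq]
    exact pow_orderOf_eq_one _
  rw [hθ2, MonoidHom.prod_apply, Prod.pow_mk, Prod.mk_eq_one] at h1
  rw [map_pow]
  exact h1.1

/-- The maximality principle. -/
theorem principle {p : ℕ} (hp : p.Prime) {w : Fin m → FreeGroup (Fin n)} {a : Fin m → ℕ}
    {Q : Type} [Group Q] [Finite Q] {θ : FreeGroup (Fin n) →* Q} (hm : MaxProfile p w a θ)
    {X : Type} [Finite X] (σ : Fin n → Equiv.Perm X)
    (hσp : ∀ g, ∃ k, act σ (g ^ p ^ k) = 1) (hσrel : ∀ i, act σ (w i ^ p ^ a i) = 1)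
    {T : Type} [Group T] (P : ℕ → Type) [∀ c, Group (P c)] [∀ c, Finite (P c)]
    (f : ∀ c, T →* P c) (hP : ∀ c, IsPGroup p (P c)) (h0 : ∀ u, f 0 u = 1)
    (hstep : ∀ c u, f c u = 1 → f (c + 1) (u ^ p) = 1) (hsep : ∀ u, (∀ c, f c u = 1) → u = 1)
    (lam : Fin n → X → T)
    (hact : ∀ i, orderOf (θ (w i)) = p ^ a i → ∀ x, Hol σ lam (w i ^ p ^ a i) x = 1) :
    ∀ i x, Hol σ lam (w i ^ p ^ a i) x = 1 := by
  classical
  have : Fact p.Prime := ⟨hp⟩
  set o : Fin m → ℕ := fun i => orderOf (θ (w i)) with ho_def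
  have ho : ∀ i, o i ∣ p ^ a i := fun i => orderOf_dvd_of_pow_eq_one (hm.rel i)
  -- the roots act trivially on `X`
  have hroot : ∀ i, act σ (w i ^ o i) = 1 := by
    intro i
    apply hm.refine (act σ)
    · intro g
      obtain ⟨k, hk⟩ := hσp g
      exact ⟨k, by rw [← map_pow]; exact hk⟩
    · intro i
      rw [← map_pow]
      exact hσrel i
  have hfix : ∀ i x, act σ (w i ^ o i) x = x := by
    intro i x
    rw [hroot]
    rfl
  have hinact : ∀ i, o i ≠ p ^ a i → ∃ e, w i ^ p ^ a i = (w i ^ o i) ^ p ^ (e + 1) := by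
    intro i hi
    obtain ⟨b, hb, hob⟩ := (Nat.dvd_prime_pow hp).mp (ho i)
    have hne : b ≠ a i := by
      intro h
      apply hi
      rw [hob, h]
    refine ⟨a i - b - 1, ?_⟩
    rw [← pow_mul, hob, ← pow_add]
    congr 2
    omega
  -- the holonomies of the roots of the inactive relators sink through the tower
  have hsink : ∀ c, ∀ i, o i ≠ p ^ a i → ∀ x, f c (Hol σ lam (w i ^ o i) x) = 1 := by
    intro c
    induction c with
    | zero => intro i _ x; exact h0 _
    | succ c ih =>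
      intro i hi x
      set lamc : Fin n → X → P (c + 1) := fun j x => f (c + 1) (lam j x) with hlamc
      have hHolc : ∀ g x, Hol σ lamc g x = f (c + 1) (Hol σ lam g x) :=
        fun g x => Hol_map σ lam (f (c + 1)) g x
      obtain ⟨e, he⟩ := (IsPGroup.iff_card (p := p) (G := P (c + 1))).mp (hP (c + 1))
      have hexp : ∀ u : P (c + 1), u ^ p ^ e = 1 := by
        intro u
        rw [← he]
        exact pow_card_eq_one'
      have hpg' : ∀ g, ∃ k, Lam σ lamc g ^ p ^ k = 1 := by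
        intro g
        obtain ⟨k, hk⟩ := Lam_pgroup σ lamc p hσp e hexp g
        exact ⟨k, by rw [← map_pow]; exact hk⟩
      have hrel' : ∀ i, Lam σ lamc (w i) ^ p ^ a i = 1 := by
        intro i'
        rw [← map_pow, Lam_eq_one_iff]
        refine ⟨hσrel i', fun x => ?_⟩
        rw [hHolc]
        by_cases hi' : o i' = p ^ a i'
        · rw [hact i' hi' x, map_one]
        · obtain ⟨e', he'⟩ := hinact i' hi'
          rw [he', Hol_pow_fix σ lam _ x (hfix i' x), pow_succ', pow_mul, map_pow,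
            hstep c _ (ih i' hi' x), one_pow]
      have h1 := hm.refine (Lam σ lamc) hpg' hrel' i
      rw [Lam_eq_one_iff] at h1
      have h2 := h1.2 x
      rwa [hHolc] at h2
  intro i x
  by_cases hi : o i = p ^ a i
  · exact hact i hi x
  · obtain ⟨e, he⟩ := hinact i hi
    rw [he, Hol_pow_fix σ lam _ x (hfix i x), hsep _ (fun c => hsink c i hi x), one_pow]

/-- The tower of reductions modulo powers of `p` on the infinite cyclic group. -/
theorem int_tower (p : ℕ) (hp : p.Prime) :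
    ∃ (P : ℕ → Type) (_ : ∀ c, Group (P c)) (_ : ∀ c, Finite (P c))
      (f : ∀ c, Multiplicative ℤ →* P c),
      (∀ c, IsPGroup p (P c)) ∧ (∀ u, f 0 u = 1) ∧
      (∀ c u, f c u = 1 → f (c + 1) (u ^ p) = 1) ∧
      (∀ u, (∀ c, f c u = 1) → u = 1) := by
  have : ∀ c : ℕ, NeZero (p ^ c) := fun c => ⟨pow_ne_zero _ hp.ne_zero⟩
  have hker : ∀ (c : ℕ) (u : Multiplicative ℤ),
      (Int.castAddHom (ZMod (p ^ c))).toMultiplicative u = 1 ↔
        ((p ^ c : ℕ) : ℤ) ∣ Multiplicative.toAdd u := by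
    intro c u
    rw [← ZMod.intCast_zmod_eq_zero_iff_dvd]
    rfl
  refine ⟨fun c => Multiplicative (ZMod (p ^ c)), fun c => inferInstance, fun c => inferInstance,
    fun c => (Int.castAddHom (ZMod (p ^ c))).toMultiplicative, ?_, ?_, ?_, ?_⟩
  · intro c
    apply IsPGroup.of_card (n := c)
    show Nat.card (Multiplicative (ZMod (p ^ c))) = p ^ c
    rw [Nat.card_congr Multiplicative.toAdd, Nat.card_zmod]
  · intro u
    rw [hker]
    simp
  · intro c u hu
    rw [hker] at hu ⊢
    have h1 : Multiplicative.toAdd (u ^ p) = (p : ℤ) * Multiplicative.toAdd u := by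
      rw [toAdd_pow, nsmul_eq_mul]
    rw [h1]
    have h2 : ((p ^ (c + 1) : ℕ) : ℤ) = (p : ℤ) * ((p ^ c : ℕ) : ℤ) := by
      push_cast
      ring
    rw [h2]
    exact mul_dvd_mul_left _ hu
  · intro u hu
    by_contra hne
    have hne' : Multiplicative.toAdd u ≠ 0 := fun h => hne h
    have h1 := (hker (Multiplicative.toAdd u).natAbs u).mp (hu _)
    have h2 : p ^ (Multiplicative.toAdd u).natAbs ∣ (Multiplicative.toAdd u).natAbs :=
      Int.natCast_dvd.mp h1
    have h3 := Nat.le_of_dvd (Int.natAbs_pos.mpr hne') h2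
    have h4 := Nat.lt_pow_self (n := (Multiplicative.toAdd u).natAbs) hp.one_lt
    omega

end Vale.Agent.H52.LG
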