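import Mathlib
import Vale.Agent.H52.LG.Kernel
import Vale.Agent.H52.LG.Principle

/-!
# The level structure

For a maximal profile `θ : F → Q` of a presentation of positive `p`-deficiency we construct an
integer labelling `d` of the Cayley graph of `Q` such that every relator has trivial holonomy and
some element `t` of the kernel of `θ` has holonomy `1` at the identity.
-/

namespace Vale.Agent.H52.LG

variable {n m : ℕ} {Q : Type} [Group Q]

/-- The generators acting on `Q` by left multiplication through `θ`. -/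
def sQ (θ : FreeGroup (Fin n) →* Q) : Fin n → Equiv.Perm Q :=
  fun j => Equiv.mulLeft (θ (FreeGroup.of j))

theorem act_sQ (θ : FreeGroup (Fin n) →* Q) (g : FreeGroup (Fin n)) (q : Q) :
    act (sQ θ) g q = θ g * q := by
  induction g using FreeGroup.induction_on generalizing q with
  | C1 => simp
  | of j => rw [act_of]; rfl
  | inv_of j _ =>
    rw [map_inv, act_of, map_inv, Equiv.Perm.inv_def]
    rfl
  | mul g h ihg ihh => rw [map_mul, Equiv.Perm.mul_apply, ihg, ihh, map_mul, mul_assoc]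

theorem act_sQ_eq_one (θ : FreeGroup (Fin n) →* Q) (g : FreeGroup (Fin n)) (hg : θ g = 1) :
    act (sQ θ) g = 1 := by
  ext q
  rw [act_sQ, hg, one_mul]
  rfl

/-- Representatives for the orbits of a cyclic subgroup acting by left multiplication. -/
theorem exists_reps [Finite Q] (a : Q) :
    ∃ R : Finset Q, R.card * orderOf a = Nat.card Q ∧ ∀ q, ∃ s : ℕ, a ^ s * q ∈ R := by
  classical
  have _ : Fintype Q := Fintype.ofFinite Q
  let H : Subgroup Q := Subgroup.zpowers a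
  let R0 : Finset Q := Finset.univ.image (fun c : Q ⧸ H => (Quotient.out c : Q))
  have hR0 : R0.card = H.index := by
    have h1 : (Finset.univ.image (fun c : Q ⧸ H => (Quotient.out c : Q))).card =
        (Finset.univ : Finset (Q ⧸ H)).card :=
      Finset.card_image_of_injective _ (fun c c' h => Quotient.out_injective h)
    show (Finset.univ.image (fun c : Q ⧸ H => (Quotient.out c : Q))).card = H.index
    rw [h1, Finset.card_univ, Subgroup.index, Nat.card_eq_fintype_card]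
  refine ⟨R0.image (fun q => q⁻¹), ?_, ?_⟩
  · rw [Finset.card_image_of_injective _ inv_injective, hR0, mul_comm,
      ← Nat.card_zpowers a]
    exact Subgroup.card_mul_index H
  · intro q
    obtain ⟨h, hh⟩ := QuotientGroup.mk_out_eq_mul H q⁻¹
    have hmem : (h : Q)⁻¹ ∈ Subgroup.zpowers a := H.inv_mem h.2
    rw [← mem_powers_iff_mem_zpowers] at hmem
    obtain ⟨s, hs⟩ := hmem
    have hs' : a ^ s = (h : Q)⁻¹ := hs
    refine ⟨s, ?_⟩
    rw [Finset.mem_image]
    refine ⟨q⁻¹ * h, ?_, ?_⟩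
    · rw [Finset.mem_image]
      exact ⟨_, Finset.mem_univ _, hh⟩
    · rw [hs', mul_inv_rev, inv_inv]

/-- The count: positive `p`-deficiency in natural numbers. -/
theorem count_ineq (p : ℕ) (hp : p.Prime) (a : Fin m → ℕ)
    (hσ : ∑ i, (1 : ℚ) / (p : ℚ) ^ a i < (n : ℚ) - 1) (N : ℕ) (hN : 0 < N)
    (S : Finset (Fin m)) (r : Fin m → ℕ) (hr : ∀ i ∈ S, r i * p ^ a i = N) :
    ∑ i ∈ S, r i + N + 1 ≤ n * N := by
  have hpQ : (0 : ℚ) < (p : ℚ) := by exact_mod_cast hp.pos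
  have hNQ : (0 : ℚ) < (N : ℚ) := by exact_mod_cast hN
  have h1 : ∀ i ∈ S, (r i : ℚ) = (N : ℚ) * ((1 : ℚ) / (p : ℚ) ^ a i) := by
    intro i hi
    have h2 : ((r i : ℕ) : ℚ) * (p : ℚ) ^ a i = (N : ℚ) := by exact_mod_cast hr i hi
    rw [← h2]
    field_simp
  have h3 : ((∑ i ∈ S, r i : ℕ) : ℚ) ≤ (N : ℚ) * ∑ i, (1 : ℚ) / (p : ℚ) ^ a i := by
    push_cast
    rw [Finset.sum_congr rfl h1, ← Finset.mul_sum]
    apply mul_le_mul_of_nonneg_left _ hNQ.le
    apply Finset.sum_le_sum_of_subset_of_nonneg (Finset.subset_univ S)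
    intro i _ _
    positivity
  have h4 : ((∑ i ∈ S, r i : ℕ) : ℚ) + (N : ℚ) < (n : ℚ) * (N : ℚ) := by
    have h5 : (N : ℚ) * ∑ i, (1 : ℚ) / (p : ℚ) ^ a i < (N : ℚ) * ((n : ℚ) - 1) :=
      mul_lt_mul_of_pos_left hσ hNQ
    nlinarith
  have h6 : ∑ i ∈ S, r i + N < n * N := by exact_mod_cast h4
  omega

variable {p : ℕ} {w : Fin m → FreeGroup (Fin n)} {a : Fin m → ℕ}
  {θ : FreeGroup (Fin n) →* Q}

theorem sQ_pgroup (hm : MaxProfile p w a θ) (g : FreeGroup (Fin n)) :
    ∃ k, act (sQ θ) (g ^ p ^ k) = 1 := by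
  obtain ⟨k, hk⟩ := hm.pgroup (θ g)
  exact ⟨k, act_sQ_eq_one θ _ (by rw [map_pow, hk])⟩

theorem sQ_rel (hm : MaxProfile p w a θ) (i : Fin m) : act (sQ θ) (w i ^ p ^ a i) = 1 :=
  act_sQ_eq_one θ _ (by rw [map_pow, hm.rel i])

/-- A labelling of the Cayley graph of `Q` with trivial holonomy on all relators and non-trivial
holonomy on some element of the kernel. -/
theorem exists_level0 [Finite Q] (hp : p.Prime) (hm : MaxProfile p w a θ)
    (hσ : ∑ i, (1 : ℚ) / (p : ℚ) ^ a i < (n : ℚ) - 1) :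
    ∃ c : Fin n → Q → Multiplicative ℤ, (∀ i q, Hol (sQ θ) c (w i ^ p ^ a i) q = 1) ∧
      ∃ k, θ k = 1 ∧ Hol (sQ θ) c k 1 ≠ 1 := by
  classical
  have _ : Fintype Q := Fintype.ofFinite Q
  choose R hR1 hR2 using fun i : Fin m => exists_reps (θ (w i))
  let Act : Finset (Fin m) := Finset.univ.filter fun i => orderOf (θ (w i)) = p ^ a i
  have hAct : ∀ i, i ∈ Act ↔ orderOf (θ (w i)) = p ^ a i := fun i => by simp [Act]
  let s : Q → FreeGroup (Fin n) := Function.surjInv hm.surj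
  have hs : ∀ q, θ (s q) = q := Function.surjInv_eq hm.surj
  let E : Finset (Fin n × Q) := Finset.univ
  let K1 : Finset (FreeGroup (Fin n) × Q) :=
    Act.biUnion fun i => (R i).image fun q => (w i ^ p ^ a i, q)
  let K2 : Finset (FreeGroup (Fin n) × Q) := Finset.univ.image fun q => (s q, (1 : Q))
  have hK1 : K1.card ≤ ∑ i ∈ Act, (R i).card :=
    Finset.card_biUnion_le.trans (Finset.sum_le_sum fun i _ => Finset.card_image_le)
  have hK2 : K2.card ≤ Fintype.card Q := Finset.card_image_le.trans (by rw [Finset.card_univ])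
  have hcount := count_ineq p hp a hσ (Fintype.card Q) Fintype.card_pos Act
    (fun i => (R i).card) (fun i hi => by
      have := hR1 i
      rw [(hAct i).mp hi, Nat.card_eq_fintype_card] at this
      exact this)
  have hE : E.card = n * Fintype.card Q := by
    rw [Finset.card_univ, Fintype.card_prod, Fintype.card_fin]
  have hK : (K1 ∪ K2).card < E.card := by
    have := Finset.card_union_le K1 K2
    omega
  obtain ⟨c, -, ⟨j0, x0, hne⟩, hcK⟩ := exists_labels (sQ θ) E (K1 ∪ K2) hK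
  have hactive : ∀ i, orderOf (θ (w i)) = p ^ a i → ∀ q, Hol (sQ θ) c (w i ^ p ^ a i) q = 1 := by
    intro i hi q
    obtain ⟨t, ht⟩ := hR2 i q
    have hcomm : w i ^ p ^ a i * w i ^ t = w i ^ t * w i ^ p ^ a i := by
      rw [← pow_add, ← pow_add, add_comm]
    have hfix : act (sQ θ) (w i ^ p ^ a i) q = q := by
      rw [sQ_rel hm i]
      rfl
    rw [← Hol_comm_inv (sQ θ) c _ (w i ^ t) hcomm q hfix, act_sQ, map_pow]
    apply hcK (w i ^ p ^ a i, θ (w i) ^ t * q)
    apply Finset.mem_union_left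
    rw [Finset.mem_biUnion]
    exact ⟨i, (hAct i).mpr hi, Finset.mem_image.mpr ⟨_, ht, rfl⟩⟩
  obtain ⟨P, hPG, hPF, f, hP, h0, hstep, hsep⟩ := int_tower p hp
  have hall := principle hp hm (sQ θ) (sQ_pgroup hm) (sQ_rel hm) P f hP h0 hstep hsep c hactive
  refine ⟨c, hall, ?_⟩
  by_contra hcon
  push Not at hcon
  apply hne
  apply labels_trivial (sQ θ) c 1 s
  · intro q
    rw [act_sQ, hs, mul_one]
  · intro h hh
    apply hcon
    rw [act_sQ, mul_one] at hh
    exact hh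
  · intro q
    apply hcK (s q, 1)
    apply Finset.mem_union_right
    exact Finset.mem_image.mpr ⟨q, Finset.mem_univ q, rfl⟩

/-- The normalised level structure. -/
theorem exists_level [Finite Q] (hp : p.Prime) (hm : MaxProfile p w a θ)
    (hσ : ∑ i, (1 : ℚ) / (p : ℚ) ^ a i < (n : ℚ) - 1) :
    ∃ d : Fin n → Q → Multiplicative ℤ, (∀ i q, Hol (sQ θ) d (w i ^ p ^ a i) q = 1) ∧
      ∃ t, θ t = 1 ∧ Hol (sQ θ) d t 1 = Multiplicative.ofAdd 1 := by
  classical
  obtain ⟨c, hrel, k0, hk0, hk0ne⟩ := exists_level0 hp hm hσ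
  let φ : FreeGroup (Fin n) → ℤ := fun g => Multiplicative.toAdd (Hol (sQ θ) c g 1)
  have hφmul : ∀ u v, θ v = 1 → φ (u * v) = φ u + φ v := by
    intro u v hv
    show Multiplicative.toAdd (Hol (sQ θ) c (u * v) 1) = _
    rw [Hol_mul, act_sQ, hv, one_mul]
    rfl
  have hφone : φ 1 = 0 := by
    show Multiplicative.toAdd (Hol (sQ θ) c 1 1) = 0
    rw [Hol_one]
    rfl
  have hφinv : ∀ v, θ v = 1 → φ v⁻¹ = - φ v := by
    intro v hv
    have h := hφmul v⁻¹ v hv
    rw [inv_mul_cancel, hφone] at h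
    omega
  let A : AddSubgroup ℤ :=
    { carrier := {z | ∃ k, θ k = 1 ∧ φ k = z}
      zero_mem' := ⟨1, map_one θ, hφone⟩
      add_mem' := by
        rintro _ _ ⟨k1, hk1, rfl⟩ ⟨k2, hk2, rfl⟩
        exact ⟨k1 * k2, by rw [map_mul, hk1, hk2, one_mul], hφmul k1 k2 hk2⟩
      neg_mem' := by
        rintro _ ⟨k, hk, rfl⟩
        exact ⟨k⁻¹, by rw [map_inv, hk, inv_one], hφinv k hk⟩ }
  obtain ⟨d0, hd0⟩ := Int.subgroup_cyclic A
  have hdvd : ∀ k, θ k = 1 → d0 ∣ φ k := by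
    intro k hk
    have h1 : φ k ∈ A := ⟨k, hk, rfl⟩
    rw [hd0, AddSubgroup.mem_closure_singleton] at h1
    obtain ⟨z, hz⟩ := h1
    exact ⟨z, by rw [← hz, smul_eq_mul, mul_comm]⟩
  have hd0ne : d0 ≠ 0 := by
    intro h0
    obtain ⟨z, hz⟩ := hdvd k0 hk0
    rw [h0, zero_mul] at hz
    exact hk0ne hz
  have hd0A : d0 ∈ A := by
    rw [hd0]
    exact AddSubgroup.subset_closure (Set.mem_singleton d0)
  obtain ⟨t0, ht0, ht0φ⟩ := hd0A
  let s : Q → FreeGroup (Fin n) := Function.surjInv hm.surj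
  have hs : ∀ q, θ (s q) = q := Function.surjInv_eq hm.surj
  let u : FreeGroup (Fin n) → Q → FreeGroup (Fin n) := fun g q => (s (θ g * q))⁻¹ * g * s q
  have hu : ∀ g q, θ (u g q) = 1 := by
    intro g q
    show θ ((s (θ g * q))⁻¹ * g * s q) = 1
    rw [map_mul, map_mul, map_inv, hs, hs]
    group
  let c' : FreeGroup (Fin n) → Q → Multiplicative ℤ :=
    fun g q => Multiplicative.ofAdd (φ (u g q) / d0)
  let d : Fin n → Q → Multiplicative ℤ := fun j q => c' (FreeGroup.of j) q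
  have hHol : ∀ g q, Hol (sQ θ) d g q = c' g q := by
    intro g q
    refine (Hol_unique (sQ θ) d c' ?_ (fun _ _ => rfl) g q).symm
    intro g h q
    rw [act_sQ]
    have h1 : u (g * h) q = u g (θ h * q) * u h q := by
      show (s (θ (g * h) * q))⁻¹ * (g * h) * s q =
        ((s (θ g * (θ h * q)))⁻¹ * g * s (θ h * q)) * ((s (θ h * q))⁻¹ * h * s q)
      rw [map_mul, mul_assoc (θ g)]
      group
    show Multiplicative.ofAdd (φ (u (g * h) q) / d0) =
      Multiplicative.ofAdd (φ (u g (θ h * q)) / d0) * Multiplicative.ofAdd (φ (u h q) / d0)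
    rw [h1, hφmul _ _ (hu h q), Int.add_ediv_of_dvd_left (hdvd _ (hu g _))]
    rfl
  have hconj : ∀ g r, (∀ q, Hol (sQ θ) c r q = 1) → θ r = 1 → φ (g⁻¹ * r * g) = 0 := by
    intro g r hr1 hr2
    have h1 := Hol_mul (sQ θ) c g⁻¹ g 1
    rw [inv_mul_cancel, Hol_one] at h1
    have h2 : act (sQ θ) (r * g) 1 = act (sQ θ) g 1 := by
      rw [act_sQ, act_sQ, map_mul, hr2, one_mul]
    have key : Hol (sQ θ) c (g⁻¹ * r * g) 1 = 1 := by
      rw [mul_assoc, Hol_mul, Hol_mul, hr1, one_mul, h2, ← h1]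
    show Multiplicative.toAdd (Hol (sQ θ) c (g⁻¹ * r * g) 1) = 0
    rw [key]
    rfl
  refine ⟨d, ?_, s 1 * t0 * (s 1)⁻¹, ?_, ?_⟩
  · intro i q
    rw [hHol]
    have hθr : θ (w i ^ p ^ a i) = 1 := by rw [map_pow, hm.rel i]
    show Multiplicative.ofAdd (φ ((s (θ (w i ^ p ^ a i) * q))⁻¹ * (w i ^ p ^ a i) * s q) / d0) = 1
    rw [hθr, one_mul, hconj _ _ (hrel i) hθr, Int.zero_ediv]
    rfl
  · rw [map_mul, map_mul, map_inv, hs, ht0]
    group
  · rw [hHol]
    have hθt : θ (s 1 * t0 * (s 1)⁻¹) = 1 := by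
      rw [map_mul, map_mul, map_inv, hs, ht0]
      group
    show Multiplicative.ofAdd
      (φ ((s (θ (s 1 * t0 * (s 1)⁻¹) * 1))⁻¹ * (s 1 * t0 * (s 1)⁻¹) * s 1) / d0) = _
    rw [hθt, one_mul]
    have h2 : (s 1)⁻¹ * (s 1 * t0 * (s 1)⁻¹) * s 1 = t0 := by group
    rw [h2, ht0φ, Int.ediv_self hd0ne]

end Vale.Agent.H52.LG
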