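import Mathlib
import Vale.Agent.H52.LG.Level

/-!
# The level cover and the band lemma

The level structure `d` turns `Q × ℤ` into a set with an action of the free group in which every
relator acts trivially.  The band lemma produces integer labellings of its Schreier graph that are
supported on a band of levels, have trivial holonomy on every active relator and on a prescribed
finite set of paths, and have non-trivial holonomy on some loop at the base point.
-/

namespace Vale.Agent.H52.LG

variable {n m : ℕ} {Q : Type} [Group Q]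

/-- The level cover. -/
abbrev Xt (Q : Type) : Type := Q × Multiplicative ℤ

/-- The generators acting on the level cover. -/
def sX (θ : FreeGroup (Fin n) →* Q) (d : Fin n → Q → Multiplicative ℤ) :
    Fin n → Equiv.Perm (Xt Q) := labPerm (sQ θ) d

/-- The level of a point of the level cover. -/
def lev (x : Xt Q) : ℤ := Multiplicative.toAdd x.2

variable (θ : FreeGroup (Fin n) →* Q) (d : Fin n → Q → Multiplicative ℤ)

theorem act_sX (g : FreeGroup (Fin n)) (q : Q) (s : Multiplicative ℤ) :
    act (sX θ d) g (q, s) = (θ g * q, Hol (sQ θ) d g q * s) := by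
  show Lam (sQ θ) d g (q, s) = _
  rw [Lam_apply, act_sQ]

theorem Hol_zpow_fix {X T : Type} [Group T] (σ : Fin n → Equiv.Perm X) (lam : Fin n → X → T)
    (g : FreeGroup (Fin n)) (x : X) (hx : act σ g x = x) (k : ℤ) :
    Hol σ lam (g ^ k) x = Hol σ lam g x ^ k := by
  have hnat : ∀ k : ℕ, act σ (g ^ k) x = x := by
    intro k
    induction k with
    | zero => simp
    | succ k ih => rw [pow_succ, map_mul, Equiv.Perm.mul_apply, hx, ih]
  cases k with
  | ofNat k =>
    show Hol σ lam (g ^ (k : ℤ)) x = Hol σ lam g x ^ (k : ℤ)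
    rw [zpow_natCast, zpow_natCast, Hol_pow_fix σ lam g x hx]
  | negSucc k =>
    rw [zpow_negSucc, zpow_negSucc, Hol_inv, ← Hol_pow_fix σ lam g x hx]
    congr 2
    rw [map_inv, Equiv.Perm.inv_def, Equiv.symm_apply_eq, hnat]

theorem sX_disp [Fintype Q] (j : Fin n) (x : Xt Q) :
    |lev (sX θ d j x) - lev x| ≤
      ((∑ j, ∑ q, (Multiplicative.toAdd (d j q)).natAbs : ℕ) : ℤ) := by
  obtain ⟨q, s⟩ := x
  have h1 : lev (sX θ d j (q, s)) - lev (q, s) = Multiplicative.toAdd (d j q) := by
    show Multiplicative.toAdd (d j q * s) - Multiplicative.toAdd s = _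
    rw [toAdd_mul]
    ring
  rw [h1, Int.abs_eq_natAbs]
  have h2 : (Multiplicative.toAdd (d j q)).natAbs ≤
      ∑ q, (Multiplicative.toAdd (d j q)).natAbs :=
    Finset.single_le_sum (f := fun q => (Multiplicative.toAdd (d j q)).natAbs)
      (fun _ _ => Nat.zero_le _) (Finset.mem_univ q)
  have h3 : ∑ q, (Multiplicative.toAdd (d j q)).natAbs ≤
      ∑ j, ∑ q, (Multiplicative.toAdd (d j q)).natAbs :=
    Finset.single_le_sum (f := fun j => ∑ q, (Multiplicative.toAdd (d j q)).natAbs)
      (fun _ _ => Nat.zero_le _) (Finset.mem_univ j)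
  exact_mod_cast h2.trans h3

/-- Locality on the level cover: vanishing form. -/
theorem Xt_vanish [Finite Q] (g : FreeGroup (Fin n)) :
    ∃ L : ℕ, ∀ (T : Type) [Group T] (lam : Fin n → Xt Q → T) (x : Xt Q),
      (∀ j y, |lev y - lev x| ≤ L → lam j y = 1) → Hol (sX θ d) lam g x = 1 := by
  have _ : Fintype Q := Fintype.ofFinite Q
  obtain ⟨L, -, hL⟩ := Hol_cover (sX θ d) (sX θ d) id (fun _ _ => rfl) lev _ (sX_disp θ d) g
  refine ⟨L, ?_⟩
  intro T _ lam x h
  have h1 := hL T (fun _ _ => (1 : T)) lam x h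
  rw [Hol_triv] at h1
  exact h1

/-- Locality on the level cover: comparison form. -/
theorem Xt_local [Finite Q] (g : FreeGroup (Fin n)) :
    ∃ L : ℕ, (∀ x, |lev (act (sX θ d) g x) - lev x| ≤ L) ∧
      ∀ (T : Type) [Group T] (lam lam' : Fin n → Xt Q → T) (x : Xt Q),
        (∀ j y, |lev y - lev x| ≤ L → lam' j y = lam j y) →
        Hol (sX θ d) lam' g x = Hol (sX θ d) lam g x := by
  have _ : Fintype Q := Fintype.ofFinite Q
  exact Hol_cover (sX θ d) (sX θ d) id (fun _ _ => rfl) lev _ (sX_disp θ d) g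

variable {θ d}

theorem act_zpow_t (t : FreeGroup (Fin n)) (ht : θ t = 1)
    (ht1 : Hol (sQ θ) d t 1 = Multiplicative.ofAdd 1) (k : ℤ) (s : Multiplicative ℤ) :
    act (sX θ d) (t ^ k) (1, s) = (1, Multiplicative.ofAdd k * s) := by
  have hfix : act (sQ θ) t 1 = 1 := by rw [act_sQ, ht, one_mul]
  rw [act_sX, map_zpow, ht, one_zpow, one_mul, Hol_zpow_fix (sQ θ) d t 1 hfix, ht1,
    ← ofAdd_zsmul, smul_eq_mul, mul_one]

/-- Paths along powers of `t` only see labels at the levels they pass. -/
theorem t_path [Finite Q] (t : FreeGroup (Fin n)) (ht : θ t = 1)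
    (ht1 : Hol (sQ θ) d t 1 = Multiplicative.ofAdd 1) :
    ∃ L : ℕ, ∀ (k l : ℤ) (T : Type) [Group T] (c : Fin n → Xt Q → T),
      (∀ j y, min l (l + k) - L ≤ lev y → lev y ≤ max l (l + k) + L → c j y = 1) →
      Hol (sX θ d) c (t ^ k) (1, Multiplicative.ofAdd l) = 1 := by
  obtain ⟨L1, hL1⟩ := Xt_vanish θ d t
  obtain ⟨L2, hL2⟩ := Xt_vanish θ d t⁻¹
  refine ⟨L1 + L2, ?_⟩
  intro k
  induction k using Int.induction_on with
  | zero =>
    intro l T _ c _
    rw [zpow_zero, Hol_one]
  | succ k ih =>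
    intro l T _ c h
    have e1 : t ^ ((k : ℤ) + 1) = t * t ^ (k : ℤ) := by rw [add_comm, zpow_add, zpow_one]
    rw [e1, Hol_mul, act_zpow_t t ht ht1, ih l T c, mul_one]
    · apply hL1
      intro j y hy
      have hy' := abs_le.mp hy
      have e2 : lev ((1 : Q), Multiplicative.ofAdd (k : ℤ) * Multiplicative.ofAdd l) = k + l := rfl
      rw [e2] at hy'
      apply h
      · push_cast
        omega
      · push_cast
        omega
    · intro j y hy1 hy2
      apply h
      · push_cast at hy1 ⊢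
        omega
      · push_cast at hy2 ⊢
        omega
  | pred k ih =>
    intro l T _ c h
    have e1 : t ^ (-(k : ℤ) - 1) = t⁻¹ * t ^ (-(k : ℤ)) := by
      rw [sub_eq_add_neg, add_comm, zpow_add, zpow_neg_one]
    rw [e1, Hol_mul, act_zpow_t t ht ht1, ih l T c, mul_one]
    · apply hL2
      intro j y hy
      have hy' := abs_le.mp hy
      have e2 : lev ((1 : Q), Multiplicative.ofAdd (-(k : ℤ)) * Multiplicative.ofAdd l) =
          -(k : ℤ) + l := rfl
      rw [e2] at hy'
      apply h
      · push_cast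
        omega
      · push_cast
        omega
    · intro j y hy1 hy2
      apply h
      · push_cast at hy1 ⊢
        omega
      · push_cast at hy2 ⊢
        omega

variable {p : ℕ} {w : Fin m → FreeGroup (Fin n)} {a : Fin m → ℕ}

theorem sX_rel (hm : MaxProfile p w a θ) (hd : ∀ i q, Hol (sQ θ) d (w i ^ p ^ a i) q = 1)
    (i : Fin m) (x : Xt Q) : act (sX θ d) (w i ^ p ^ a i) x = x := by
  obtain ⟨q, s⟩ := x
  rw [act_sX, hd, one_mul, map_pow, hm.rel, one_mul]

/-- The band lemma. -/
theorem band [Finite Q] (hp : p.Prime) (hm : MaxProfile p w a θ)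
    (hσ : ∑ i, (1 : ℚ) / (p : ℚ) ^ a i < (n : ℚ) - 1)
    (hd : ∀ i q, Hol (sQ θ) d (w i ^ p ^ a i) q = 1) (t : FreeGroup (Fin n)) (ht : θ t = 1)
    (ht1 : Hol (sQ θ) d t 1 = Multiplicative.ofAdd 1) :
    ∃ M : ℕ, ∀ (A : ℤ), (M : ℤ) ≤ A → ∀ (extra : Finset (FreeGroup (Fin n) × Xt Q)),
      ∃ (ℓ : ℕ) (c : Fin n → Xt Q → Multiplicative ℤ),
        (∀ j y, (lev y < A ∨ A + ℓ ≤ lev y) → c j y = 1) ∧
        (∀ i, orderOf (θ (w i)) = p ^ a i → ∀ x, Hol (sX θ d) c (w i ^ p ^ a i) x = 1) ∧
        (∀ e ∈ extra, Hol (sX θ d) c e.1 e.2 = 1) ∧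
        ∃ h, act (sX θ d) h (1, 1) = (1, 1) ∧ Hol (sX θ d) c h (1, 1) ≠ 1 := by
  classical
  have _ : Fintype Q := Fintype.ofFinite Q
  choose R hR1 hR2 using fun i : Fin m => exists_reps (θ (w i))
  let Act : Finset (Fin m) := Finset.univ.filter fun i => orderOf (θ (w i)) = p ^ a i
  have hAct : ∀ i, i ∈ Act ↔ orderOf (θ (w i)) = p ^ a i := fun i => by simp [Act]
  let s : Q → FreeGroup (Fin n) := Function.surjInv hm.surj
  have hs : ∀ q, θ (s q) = q := Function.surjInv_eq hm.surj
  let κ : Q → ℤ := fun q => Multiplicative.toAdd (Hol (sQ θ) d (s q) 1)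
  choose Lr hLr using fun i : Fin m => Xt_vanish θ d (w i ^ p ^ a i)
  choose Ls hLs using fun q : Q => Xt_vanish θ d (s q)
  obtain ⟨Lt, hLt⟩ := t_path (θ := θ) (d := d) t ht ht1
  let LR : ℕ := ∑ i, Lr i
  have hLR : ∀ i, Lr i ≤ LR := fun i =>
    Finset.single_le_sum (f := Lr) (fun _ _ => Nat.zero_le _) (Finset.mem_univ i)
  let LS : ℕ := ∑ q, (Ls q + (κ q).natAbs)
  have hLS : ∀ q, Ls q + (κ q).natAbs ≤ LS := fun q =>
    Finset.single_le_sum (f := fun q => Ls q + (κ q).natAbs) (fun _ _ => Nat.zero_le _)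
      (Finset.mem_univ q)
  let Lstar : ℕ := LS + Lt
  refine ⟨Lt + 1, ?_⟩
  intro A hA extra
  let ρ : ℕ := ∑ i ∈ Act, (R i).card
  let cQ : ℕ := Fintype.card Q
  have hcount : ρ + cQ + 1 ≤ n * cQ :=
    count_ineq p hp a hσ (Fintype.card Q) Fintype.card_pos Act
      (fun i => (R i).card) (fun i hi => by
        have := hR1 i
        rw [(hAct i).mp hi, Nat.card_eq_fintype_card] at this
        exact this)
  let ℓ : ℕ := 2 * (LR * ρ) + 2 * (Lstar * cQ) + extra.card + 3
  let Bt : ℤ := A + ℓ + Lt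
  let x0 : Xt Q := (1, 1)
  let gs : Xt Q → FreeGroup (Fin n) := fun x => s x.1 * t ^ (lev x - κ x.1)
  have hgs : ∀ x, act (sX θ d) (gs x) x0 = x := by
    rintro ⟨q, sx⟩
    show act (sX θ d) (s q * t ^ (Multiplicative.toAdd sx - κ q)) (1, 1) = (q, sx)
    rw [map_mul, Equiv.Perm.mul_apply, act_zpow_t t ht ht1, act_sX, hs, mul_one, mul_one]
    congr 1
    show Multiplicative.ofAdd (κ q) * Multiplicative.ofAdd (Multiplicative.toAdd sx - κ q) = sx
    rw [← ofAdd_add]
    show Multiplicative.ofAdd (κ q + (Multiplicative.toAdd sx - κ q)) =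
      Multiplicative.ofAdd (Multiplicative.toAdd sx)
    congr 1
    ring
  -- the admissible edges
  let E : Finset (Fin n × Xt Q) :=
    Finset.univ ×ˢ (Finset.univ ×ˢ (Finset.Ico A (A + ℓ)).image Multiplicative.ofAdd)
  have hEcard : E.card = n * (cQ * ℓ) := by
    show (Finset.univ ×ˢ (Finset.univ ×ˢ (Finset.Ico A (A + ℓ)).image Multiplicative.ofAdd)).card
      = n * (cQ * ℓ)
    rw [Finset.card_product, Finset.card_product, Finset.card_univ, Finset.card_univ,
      Fintype.card_fin, Finset.card_image_of_injective _ Multiplicative.ofAdd.injective,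
      Int.card_Ico]
    congr 2
    omega
  have hEmem : ∀ j y, (j, y) ∈ E → A ≤ lev y ∧ lev y < A + ℓ := by
    intro j y hy
    have h1 : y.2 ∈ (Finset.Ico A (A + ℓ)).image Multiplicative.ofAdd :=
      (Finset.mem_product.mp (Finset.mem_product.mp hy).2).2
    obtain ⟨z, hz, hz2⟩ := Finset.mem_image.mp h1
    have h2 : lev y = z := by
      show Multiplicative.toAdd y.2 = z
      rw [← hz2]
      rfl
    rw [h2]
    exact Finset.mem_Ico.mp hz
  -- the prescribed paths
  let K1 : Finset (FreeGroup (Fin n) × Xt Q) :=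
    Act.biUnion fun i => ((R i) ×ˢ (Finset.Ico (A - LR) (A + ℓ + LR))).image
      fun ql => (w i ^ p ^ a i, ((ql.1, Multiplicative.ofAdd ql.2) : Xt Q))
  let K3 : Finset (FreeGroup (Fin n) × Xt Q) :=
    ((Finset.univ : Finset Q) ×ˢ (Finset.Ico (A - Lstar) (A + ℓ + Lstar))).image
      fun ql => (gs (ql.1, Multiplicative.ofAdd ql.2), x0)
  let K4 : Finset (FreeGroup (Fin n) × Xt Q) := {(t ^ Bt, x0)}
  have hK1 : K1.card ≤ ρ * (ℓ + 2 * LR) := by
    refine Finset.card_biUnion_le.trans ?_
    show ∑ i ∈ Act, _ ≤ (∑ i ∈ Act, (R i).card) * (ℓ + 2 * LR)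
    rw [Finset.sum_mul]
    apply Finset.sum_le_sum
    intro i _
    refine Finset.card_image_le.trans ?_
    rw [Finset.card_product, Int.card_Ico]
    apply Nat.mul_le_mul_left
    omega
  have hK3 : K3.card ≤ cQ * (ℓ + 2 * Lstar) := by
    refine Finset.card_image_le.trans ?_
    rw [Finset.card_product, Int.card_Ico, Finset.card_univ]
    apply Nat.mul_le_mul_left
    omega
  have hK4 : K4.card = 1 := Finset.card_singleton _
  have hK : (K1 ∪ extra ∪ K3 ∪ K4).card < E.card := by
    have h1 := Finset.card_union_le (K1 ∪ extra ∪ K3) K4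
    have h2 := Finset.card_union_le (K1 ∪ extra) K3
    have h3 := Finset.card_union_le K1 extra
    have h4 : (ρ + cQ + 1) * ℓ ≤ n * cQ * ℓ := Nat.mul_le_mul_right ℓ hcount
    have e1 : ρ * (ℓ + 2 * LR) = ρ * ℓ + 2 * (LR * ρ) := by ring
    have e2 : cQ * (ℓ + 2 * Lstar) = cQ * ℓ + 2 * (Lstar * cQ) := by ring
    have e3 : (ρ + cQ + 1) * ℓ = ρ * ℓ + cQ * ℓ + ℓ := by ring
    have e4 : n * (cQ * ℓ) = n * cQ * ℓ := by ring
    have e5 : ℓ = 2 * (LR * ρ) + 2 * (Lstar * cQ) + extra.card + 3 := rfl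
    rw [hEcard, e4]
    rw [e1] at hK1
    rw [e2] at hK3
    rw [e3] at h4
    omega
  obtain ⟨c, hsupp, ⟨j0, y0, hne⟩, hcK⟩ :=
    exists_labels (sX θ d) E (K1 ∪ extra ∪ K3 ∪ K4) hK
  have hsupp' : ∀ j y, (lev y < A ∨ A + ℓ ≤ lev y) → c j y = 1 := by
    intro j y hy
    apply hsupp
    intro hmem
    have := hEmem j y hmem
    omega
  refine ⟨ℓ, c, hsupp', ?_, ?_, ?_⟩
  · -- active relators
    intro i hi x
    obtain ⟨q, sx⟩ := x
    obtain ⟨k, hk⟩ := hR2 i q
    have hcomm : w i ^ p ^ a i * w i ^ k = w i ^ k * w i ^ p ^ a i := by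
      rw [← pow_add, ← pow_add, add_comm]
    rw [← Hol_comm_inv (sX θ d) c _ (w i ^ k) hcomm (q, sx) (sX_rel hm hd i _), act_sX, map_pow]
    set s' : Multiplicative ℤ := Hol (sQ θ) d (w i ^ k) q * sx with hs'
    by_cases hl : A - LR ≤ Multiplicative.toAdd s' ∧ Multiplicative.toAdd s' < A + ℓ + LR
    · apply hcK (w i ^ p ^ a i, (θ (w i) ^ k * q, s'))
      apply Finset.mem_union_left
      apply Finset.mem_union_left
      apply Finset.mem_union_left
      rw [Finset.mem_biUnion]
      refine ⟨i, (hAct i).mpr hi, Finset.mem_image.mpr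
        ⟨(θ (w i) ^ k * q, Multiplicative.toAdd s'), ?_, rfl⟩⟩
      exact Finset.mem_product.mpr ⟨hk, Finset.mem_Ico.mpr hl⟩
    · apply hLr i
      intro j y hy
      apply hsupp'
      have hy' := abs_le.mp hy
      have e2 : lev ((θ (w i) ^ k * q, s') : Xt Q) = Multiplicative.toAdd s' := rfl
      rw [e2] at hy'
      have := hLR i
      omega
  · intro e he
    apply hcK e
    apply Finset.mem_union_left
    apply Finset.mem_union_left
    exact Finset.mem_union_right _ he
  · -- a loop with non-trivial holonomy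
    by_contra hcon
    push Not at hcon
    apply hne
    apply labels_trivial (sX θ d) c x0 gs hgs hcon
    rintro ⟨q, sx⟩
    set l : ℤ := Multiplicative.toAdd sx with hl
    have hκ1 : κ q ≤ ((κ q).natAbs : ℤ) := Int.le_natAbs
    have hκ2 : -(κ q) ≤ ((κ q).natAbs : ℤ) := by
      have h := Int.le_natAbs (a := -(κ q))
      rwa [Int.natAbs_neg] at h
    have hLSq := hLS q
    by_cases hin : A - Lstar ≤ l ∧ l < A + ℓ + Lstar
    · apply hcK (gs (q, sx), x0)
      apply Finset.mem_union_left
      apply Finset.mem_union_right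
      exact Finset.mem_image.mpr ⟨(q, l), Finset.mem_product.mpr
        ⟨Finset.mem_univ q, Finset.mem_Ico.mpr hin⟩, rfl⟩
    · show Hol (sX θ d) c (s q * t ^ (l - κ q)) (1, 1) = 1
      rw [Hol_mul, act_zpow_t t ht ht1, mul_one]
      have e0 : ((1 : Q), (1 : Multiplicative ℤ)) = (1, Multiplicative.ofAdd (0 : ℤ)) := rfl
      rcases lt_or_ge l (A - Lstar) with hlow | hhigh
      · -- below the band
        have h1 : Hol (sX θ d) c (s q) (1, Multiplicative.ofAdd (l - κ q)) = 1 := by
          apply hLs q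
          intro j y hy
          apply hsupp'
          have hy' := abs_le.mp hy
          have e2 : lev ((1 : Q), Multiplicative.ofAdd (l - κ q)) = l - κ q := rfl
          rw [e2] at hy'
          left
          show lev y < A
          have : ((Lstar : ℕ) : ℤ) = (LS : ℤ) + (Lt : ℤ) := Nat.cast_add LS Lt
          omega
        have h2 : Hol (sX θ d) c (t ^ (l - κ q)) (1, 1) = 1 := by
          rw [e0]
          apply hLt
          intro j y hy1 hy2
          apply hsupp'
          left
          have : ((Lstar : ℕ) : ℤ) = (LS : ℤ) + (Lt : ℤ) := Nat.cast_add LS Lt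
          push_cast at hA
          omega
        rw [h1, h2, mul_one]
      · -- above the band
        have hhigh' : A + ℓ + Lstar ≤ l := by
          by_contra hc
          exact hin ⟨hhigh, not_le.mp hc⟩
        have hLstar : ((Lstar : ℕ) : ℤ) = (LS : ℤ) + (Lt : ℤ) := Nat.cast_add LS Lt
        have h1 : Hol (sX θ d) c (s q) (1, Multiplicative.ofAdd (l - κ q)) = 1 := by
          apply hLs q
          intro j y hy
          apply hsupp'
          have hy' := abs_le.mp hy
          have e2 : lev ((1 : Q), Multiplicative.ofAdd (l - κ q)) = l - κ q := rfl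
          rw [e2] at hy'
          right
          omega
        have h2 : Hol (sX θ d) c (t ^ (l - κ q)) (1, 1) = 1 := by
          have e3 : t ^ (l - κ q) = t ^ (l - κ q - Bt) * t ^ Bt := by
            rw [← zpow_add, sub_add_cancel]
          have h3 : Hol (sX θ d) c (t ^ Bt) (1, 1) = 1 := by
            apply hcK (t ^ Bt, x0)
            apply Finset.mem_union_right
            exact Finset.mem_singleton_self _
          rw [e3, Hol_mul, h3, mul_one, act_zpow_t t ht ht1, mul_one]
          apply hLt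
          intro j y hy1 hy2
          apply hsupp'
          right
          have hBt : Bt = A + ℓ + Lt := rfl
          omega
        rw [h1, h2, mul_one]

end Vale.Agent.H52.LG
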