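import Mathlib
import Vale.Agent.H52.LG.Band

/-!
# The finite covers `Q × ℤ/N` and periodised labellings

The level cover `Q × ℤ` maps onto the finite set `Q × ℤ/N`.  A labelling of the level cover that
is supported in a window of fewer than `N` levels descends to a labelling of the finite cover,
and the holonomy of a path downstairs agrees with the holonomy upstairs as long as the path stays
inside the window, and is trivial near the seam.
-/

namespace Vale.Agent.H52.LG

variable {n m : ℕ} {Q : Type} [Group Q]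

/-- The finite cover. -/
abbrev Xm (Q : Type) (N : ℕ) : Type := Q × Multiplicative (ZMod N)

/-- Reduction of levels modulo `N`. -/
def redN (N : ℕ) : Multiplicative ℤ →* Multiplicative (ZMod N) :=
  (Int.castAddHom (ZMod N)).toMultiplicative

/-- The generators acting on the finite cover. -/
def sM (θ : FreeGroup (Fin n) →* Q) (d : Fin n → Q → Multiplicative ℤ) (N : ℕ) :
    Fin n → Equiv.Perm (Xm Q N) := labPerm (sQ θ) (fun j q => redN N (d j q))

/-- The covering map. -/
def covM (N : ℕ) (y : Xt Q) : Xm Q N := (y.1, redN N y.2)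

variable (θ : FreeGroup (Fin n) →* Q) (d : Fin n → Q → Multiplicative ℤ)

theorem covM_equiv (N : ℕ) (j : Fin n) (y : Xt Q) :
    covM N (sX θ d j y) = sM θ d N j (covM N y) := by
  show ((sQ θ j y.1, redN N (d j y.1 * y.2)) : Xm Q N) =
    (sQ θ j y.1, redN N (d j y.1) * redN N y.2)
  rw [map_mul]

variable {θ d} {p : ℕ} {w : Fin m → FreeGroup (Fin n)} {a : Fin m → ℕ}

theorem sM_pgroup (hm : MaxProfile p w a θ) (k : ℕ) (g : FreeGroup (Fin n)) :
    ∃ k', act (sM θ d (p ^ k)) (g ^ p ^ k') = 1 := by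
  have hT : ∀ u : Multiplicative (ZMod (p ^ k)), u ^ p ^ k = 1 := by
    intro u
    show Multiplicative.ofAdd ((p ^ k) • Multiplicative.toAdd u) = 1
    rw [nsmul_eq_mul, ZMod.natCast_self, zero_mul]
    rfl
  exact Lam_pgroup (sQ θ) (fun j q => redN (p ^ k) (d j q)) p (sQ_pgroup hm) k hT g

theorem sM_rel (hm : MaxProfile p w a θ) (hd : ∀ i q, Hol (sQ θ) d (w i ^ p ^ a i) q = 1)
    (N : ℕ) (i : Fin m) : act (sM θ d N) (w i ^ p ^ a i) = 1 := by
  show Lam (sQ θ) (fun j q => redN N (d j q)) (w i ^ p ^ a i) = 1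
  rw [Lam_eq_one_iff]
  exact ⟨sQ_rel hm i, fun q => by rw [Hol_map (sQ θ) d (redN N), hd, map_one]⟩

/-- Pulling back labels along an equivariant map. -/
theorem Hol_pullback {X X' T : Type} [Group T] (σ : Fin n → Equiv.Perm X)
    (σ' : Fin n → Equiv.Perm X') (π : X → X') (hπ : ∀ j x, π (σ j x) = σ' j (π x))
    (lam' : Fin n → X' → T) (g : FreeGroup (Fin n)) (x : X) :
    Hol σ' lam' g (π x) = Hol σ (fun j y => lam' j (π y)) g x := by
  refine Hol_unique σ (fun j y => lam' j (π y)) (fun g x => Hol σ' lam' g (π x)) ?_ ?_ g x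
  · intro g h x
    rw [Hol_mul, act_equivariant σ σ' π hπ]
  · intro j x
    rw [Hol_of]

/-- The representative of a level in the window of length `N` starting at `W`. -/
def rep (N : ℕ) (W l : ℤ) : ℤ := W + (l - W) % N

/-- The periodised labelling on the finite cover. -/
def perLab {T : Type} (N : ℕ) (W : ℤ) (lam : Fin n → Xt Q → T) : Fin n → Xm Q N → T :=
  fun j x => lam j (x.1, Multiplicative.ofAdd
    (rep N W (ZMod.cast (Multiplicative.toAdd x.2) : ℤ)))

omit [Group Q] in
theorem perLab_cov {T : Type} (N : ℕ) (W : ℤ) (lam : Fin n → Xt Q → T) (j : Fin n)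
    (y : Xt Q) :
    perLab N W lam j (covM N y) = lam j (y.1, Multiplicative.ofAdd (rep N W (lev y))) := by
  have h1 : (ZMod.cast (Multiplicative.toAdd (redN N y.2)) : ℤ) = lev y % N := by
    show (ZMod.cast ((Multiplicative.toAdd y.2 : ℤ) : ZMod N) : ℤ) = _
    rw [ZMod.coe_intCast]
    rfl
  show lam j (y.1, Multiplicative.ofAdd
    (rep N W (ZMod.cast (Multiplicative.toAdd (redN N y.2)) : ℤ))) = _
  rw [h1]
  unfold rep
  rw [Int.emod_sub_emod]

omit [Group Q] in
theorem cov_surj (N : ℕ) [NeZero N] (W : ℤ) (x : Xm Q N) :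
    ∃ y : Xt Q, covM N y = x ∧ W ≤ lev y ∧ lev y < W + N := by
  have hN : (0 : ℤ) < (N : ℤ) := by exact_mod_cast Nat.pos_of_ne_zero (NeZero.ne N)
  obtain ⟨q, s⟩ := x
  set c : ℤ := (ZMod.cast (Multiplicative.toAdd s) : ℤ) with hc
  refine ⟨(q, Multiplicative.ofAdd (rep N W c)), ?_, ?_, ?_⟩
  · show ((q, Multiplicative.ofAdd (((rep N W c : ℤ) : ZMod N))) : Xm Q N) = (q, s)
    congr 1
    have h1 : (((rep N W c : ℤ) : ZMod N)) = Multiplicative.toAdd s := by
      unfold rep
      rw [Int.cast_add, ZMod.intCast_mod, Int.cast_sub, add_sub_cancel, hc,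
        ZMod.intCast_zmod_cast]
    rw [h1]
    rfl
  · show W ≤ rep N W c
    unfold rep
    have := Int.emod_nonneg (c - W) hN.ne'
    omega
  · show rep N W c < W + N
    unfold rep
    have := Int.emod_lt_of_pos (c - W) hN
    omega

theorem emod_window (N : ℕ) (L : ℕ) (hL : L ≤ N) (u : ℤ)
    (hu : (-(L : ℤ) ≤ u ∧ u < 2 * L) ∨ ((N : ℤ) - 2 * L ≤ u ∧ u < N + L)) :
    u % N < 2 * L ∨ (N : ℤ) - 2 * L ≤ u % N := by
  by_cases h0 : u < 0
  · have h1 : u % N = u + N := by
      rw [← Int.add_emod_right u N]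
      exact Int.emod_eq_of_lt (by omega) (by omega)
    rw [h1]
    omega
  · by_cases h1 : u < N
    · rw [Int.emod_eq_of_lt (by omega) h1]
      omega
    · have h2 : u % N = u - N := by
        rw [← Int.sub_emod_right u N]
        exact Int.emod_eq_of_lt (by omega) (by omega)
      rw [h2]
      omega

/-- Holonomy on the finite cover with periodised labels. -/
theorem per_hol [Finite Q] (θ : FreeGroup (Fin n) →* Q) (d : Fin n → Q → Multiplicative ℤ)
    (g : FreeGroup (Fin n)) :
    ∃ L : ℕ, ∀ (T : Type) [Group T] (lam : Fin n → Xt Q → T) (N : ℕ) (W : ℤ) (T0 : ℕ),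
      W + 2 * L ≤ 0 → (T0 : ℤ) + 2 * L ≤ W + N →
      (∀ j y, (lev y < 0 ∨ (T0 : ℤ) ≤ lev y) → lam j y = 1) →
      ∀ y : Xt Q, W ≤ lev y → lev y < W + N →
        (W + L ≤ lev y → lev y < W + N - L →
          Hol (sM θ d N) (perLab N W lam) g (covM N y) = Hol (sX θ d) lam g y) ∧
        ((lev y < W + L ∨ W + N - L ≤ lev y) →
          Hol (sM θ d N) (perLab N W lam) g (covM N y) = 1) := by
  obtain ⟨L, -, hloc⟩ := Xt_local θ d g
  refine ⟨L, ?_⟩
  intro T _ lam N W T0 hW hT0 hsupp y hy1 hy2
  have hpb : Hol (sM θ d N) (perLab N W lam) g (covM N y) =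
      Hol (sX θ d) (fun j y' => lam j (y'.1, Multiplicative.ofAdd (rep N W (lev y')))) g y := by
    rw [Hol_pullback (sX θ d) (sM θ d N) (covM N) (covM_equiv θ d N)]
    congr 1
    funext j y'
    exact perLab_cov N W lam j y'
  constructor
  · intro h1 h2
    rw [hpb]
    apply hloc T lam _ y
    intro j y' hy'
    have hy'' := abs_le.mp hy'
    have hrep : rep N W (lev y') = lev y' := by
      unfold rep
      rw [Int.emod_eq_of_lt (by omega) (by omega)]
      ring
    show lam j (y'.1, Multiplicative.ofAdd (rep N W (lev y'))) = lam j y'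
    rw [hrep]
    rfl
  · intro h
    rw [hpb]
    have h3 := hloc T (fun _ _ => (1 : T))
      (fun j y' => lam j (y'.1, Multiplicative.ofAdd (rep N W (lev y')))) y ?_
    · rw [Hol_triv] at h3
      exact h3
    · intro j y' hy'
      have hy'' := abs_le.mp hy'
      show lam j (y'.1, Multiplicative.ofAdd (rep N W (lev y'))) = 1
      apply hsupp
      show rep N W (lev y') < 0 ∨ (T0 : ℤ) ≤ rep N W (lev y')
      unfold rep
      have hLN : L ≤ N := by omega
      have hw := emod_window N L hLN (lev y' - W) (by omega)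
      omega

end Vale.Agent.H52.LG
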